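import Vale.Agent.P267.H469.Betti

/-! The structure `Calc.Gaud` (closed real one-form `θ` with `tr (∂θ^{0,1})` a nonzero constant) from
the Gauduchon functional and `b_1 = 1` (package GAUD of P267). -/

namespace Vale.Agent.P267.H661

noncomputable section

open scoped ComplexConjugate
open Vale.Agent.P267.H469

variable {Ω0 Ω1 Ω2 Ω3 : Type*} [AddCommGroup Ω0] [Module ℂ Ω0] [AddCommGroup Ω1]
    [Module ℂ Ω1] [AddCommGroup Ω2] [Module ℂ Ω2] [AddCommGroup Ω3] [Module ℂ Ω3]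
    {C : Calc Ω0 Ω1 Ω2 Ω3}

variable (C) in
/-- `tr ∂∂̄u` -/
def dd (u : Ω0) : Ω0 := C.tr (C.d1 (C.p01 (C.d0 u)))

theorem dd_sub (u v : Ω0) : dd C (u - v) = dd C u - dd C v := by
  simp only [dd, map_sub]

theorem dd_smul (c : ℂ) (u : Ω0) : dd C (c • u) = c • dd C u := by
  simp only [dd, map_smul]

theorem dd_add (u v : Ω0) : dd C (u + v) = dd C u + dd C v := by
  simp only [dd, map_add]

/-- for a closed form `tr ∂θ^{0,1}` is compatible with conjugation -/
theorem tr_conj_closed {a : Ω1} (ha : C.d1 a = 0) :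
    C.tr (C.d1 (C.p01 (C.c1 a))) = C.c0 (C.tr (C.d1 (C.p01 a))) := by
  have h1 : C.c2 (C.d1 (C.p01 a)) = C.d1 (C.p10 (C.c1 a)) := by
    rw [← C.d1c, C.c1_p01]
  have h2 : C.d1 (C.p10 (C.c1 a)) = - C.d1 (C.p01 (C.c1 a)) := by
    rw [eq_neg_iff_add_eq_zero, ← map_add, C.p1_add, C.d1c, ha, map_zero]
  have h3 := C.tr_conj (C.d1 (C.p01 a))
  rw [h1, h2, map_neg] at h3
  exact neg_injective h3

theorem dd_c0 (u : Ω0) : dd C (C.c0 u) = C.c0 (dd C u) := by
  unfold dd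
  rw [C.d0c, tr_conj_closed (C.d1d0 u)]

variable (C) in
/-- The scalar input: the Gauduchon functional. -/
structure Scal where
  /-- the functional -/
  G : Ω0 →ₗ[ℂ] ℂ
  G_one : G C.one ≠ 0
  G_ddc : ∀ u, G (C.tr (C.d1 (C.p01 (C.d0 u)))) = 0
  G_surj : ∀ g, G g = 0 → ∃ u, C.tr (C.d1 (C.p01 (C.d0 u))) = g

variable (S : Scal C)

include S in
/-- a closed real form can be changed by an exact real form such that the trace is a real
constant. -/
theorem Scal.exists_const {θ0 : Ω1} (hc : C.d1 θ0 = 0) (hr : C.c1 θ0 = θ0) :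
    ∃ (u : Ω0) (c : ℂ), C.c0 u = u ∧ conj c = c ∧
      C.tr (C.d1 (C.p01 (θ0 - C.d0 u))) = c • C.one := by
  set g0 := C.tr (C.d1 (C.p01 θ0)) with hg0
  set c := S.G g0 / S.G C.one with hcdef
  obtain ⟨v, hv⟩ := S.G_surj (g0 - c • C.one) (by
    rw [map_sub, map_smul, smul_eq_mul, hcdef, div_mul_cancel₀ _ S.G_one, sub_self])
  have hreal : C.c0 g0 = g0 := by
    have := tr_conj_closed hc
    rw [hr] at this
    exact this.symm
  have hv1 : dd C v = g0 - c • C.one := hv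
  have hv2 : dd C (C.c0 v) = g0 - conj c • C.one := by
    rw [dd_c0, hv1, map_sub, map_smulₛₗ, hreal, C.c0one]
  have hcc : conj c = c := by
    have h1 : S.G (dd C (v - C.c0 v)) = 0 := S.G_ddc _
    rw [dd_sub, hv1, hv2, sub_sub_sub_cancel_left, ← sub_smul, map_smul, smul_eq_mul] at h1
    have h2 := (mul_eq_zero.1 h1).resolve_right S.G_one
    exact sub_eq_zero.1 h2
  refine ⟨(1 / 2 : ℂ) • (v + C.c0 v), c, ?_, hcc, ?_⟩
  · rw [map_smulₛₗ, map_add, C.c0c0, add_comm]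
    congr 1
    simp only [one_div, map_inv₀]
    rw [Complex.conj_ofNat]
  · rw [map_sub, map_sub, map_sub]
    have h1 : C.tr (C.d1 (C.p01 (C.d0 ((1 / 2 : ℂ) • (v + C.c0 v))))) =
        (1 / 2 : ℂ) • (dd C v + dd C (C.c0 v)) := by
      rw [← dd_add, ← dd_smul]; rfl
    rw [h1, hv1, hv2, hcc, ← hg0, ← two_smul ℂ, smul_smul]
    norm_num

/-- **The form `θ`.** If `θ0` is a closed real one-form which is not exact and generates `H¹`, then
`θ = θ0 - du` (`u` real) has `tr(∂θ^{0,1})` equal to a nonzero real constant. -/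
theorem Scal.exists_gaud {θ0 : Ω1} (hc : C.d1 θ0 = 0) (hr : C.c1 θ0 = θ0)
    (hne : ∀ u, θ0 ≠ C.d0 u) (hb : C.B1le θ0) :
    ∃ (A : C.Gaud) (u : Ω0), C.c0 u = u ∧ A.θ = θ0 - C.d0 u ∧ A.G = S.G ∧ conj A.c = A.c := by
  obtain ⟨u, c, hu, hcc, h⟩ := S.exists_const hc hr
  set θ := θ0 - C.d0 u with hθ
  have hcl : C.d1 θ = 0 := by rw [hθ, map_sub, hc, C.d1d0, sub_zero]
  have hre : C.c1 θ = θ := by rw [hθ, map_sub, hr, ← C.d0c, hu]
  have hc0 : c ≠ 0 := by
    rintro rfl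
    rw [zero_smul] at h
    set b := C.d1 (C.p01 θ) with hbdef
    have h11 : C.p11 b = b := by
      have : C.is11 b := by
        rw [Calc.is11_iff]
        refine ⟨C.integ' _, ?_⟩
        have h2 : b = - C.d1 (C.p10 θ) := by
          rw [hbdef, eq_neg_iff_add_eq_zero, add_comm, ← map_add, C.p1_add, hcl]
        rw [h2, map_neg, C.integ, neg_zero]
      exact this
    have h22 : C.I22 b (C.c2 b) = 0 := by
      rw [hbdef, C.stokes, ← C.d1c, C.d2d1, map_zero]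
    have hb0 : b = 0 := C.neg11' b h11 h (by rw [h22]; simp)
    have hw : C.is10 (C.c1 (C.p01 θ)) := by
      unfold Calc.is10
      rw [← C.c1_p01, C.p01_idem]
    have h3 : C.c1 (C.p01 θ) = 0 := C.hol1_eq_zero hb hw (by
      rw [C.d1c, ← hbdef, hb0, map_zero, map_zero])
    have h4 : C.p01 θ = 0 := by
      have := congrArg C.c1 h3
      rwa [C.c1c1, map_zero] at this
    have h5 : C.p10 θ = 0 := by
      rw [C.c1_p01, hre] at h3; exact h3
    have h6 : θ = 0 := by rw [← C.p1_add θ, h4, h5, add_zero]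
    exact hne u (sub_eq_zero.1 h6)
  exact ⟨⟨S.G, S.G_one, S.G_ddc, S.G_surj, θ, hcl, hre, c, hc0, h⟩, u, hu, rfl, rfl, hcc⟩

/-- generator of `H¹` from `b_1 = 1` -/
theorem exists_closed_real (h : Module.finrank ℂ C.H1 = 1) :
    ∃ θ0 : Ω1, C.d1 θ0 = 0 ∧ C.c1 θ0 = θ0 ∧ (∀ u, θ0 ≠ C.d0 u) := by
  by_contra hcon
  push Not at hcon
  have hex : ∀ a : Ω1, C.d1 a = 0 → ∃ u, a = C.d0 u := by
    intro a ha
    obtain ⟨u, hu⟩ := hcon (a + C.c1 a) (by rw [map_add, C.d1c, ha, map_zero, add_zero])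
      (by rw [map_add, C.c1c1, add_comm])
    obtain ⟨v, hv⟩ := hcon (Complex.I • (a - C.c1 a))
      (by rw [map_smul, map_sub, C.d1c, ha, map_zero, sub_zero, smul_zero])
      (by rw [map_smulₛₗ, map_sub, C.c1c1, Complex.conj_I, neg_smul, ← smul_neg, neg_sub])
    refine ⟨(1 / 2 : ℂ) • (u - Complex.I • v), ?_⟩
    rw [map_smul, map_sub, map_smul, ← hu, ← hv, smul_smul, Complex.I_mul_I, neg_one_smul,
      sub_neg_eq_add, add_add_sub_cancel, ← two_smul ℂ, smul_smul]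
    norm_num
  have hsub : Subsingleton C.H1 := by
    refine ⟨fun x y => ?_⟩
    have : ∀ x : C.H1, x = 0 := by
      intro x
      obtain ⟨⟨a, ha⟩, rfl⟩ := Submodule.Quotient.mk_surjective _ x
      rw [Submodule.Quotient.mk_eq_zero]
      obtain ⟨u, hu⟩ := hex a ha
      exact ⟨u, hu.symm⟩
    rw [this x, this y]
  have := Module.finrank_zero_of_subsingleton (R := ℂ) (M := C.H1)
  omega

/-- `B1le` from `b_1 = 1` for any closed form which is not exact -/
theorem b1le_of {θ0 : Ω1} (h : Module.finrank ℂ C.H1 = 1) (hc : C.d1 θ0 = 0)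
    (hne : ∀ u, θ0 ≠ C.d0 u) : C.B1le θ0 := by
  set x : LinearMap.ker C.d1 := ⟨θ0, hc⟩
  have hx : (Submodule.Quotient.mk x : C.H1) ≠ 0 := by
    intro h0
    rw [Submodule.Quotient.mk_eq_zero] at h0
    obtain ⟨u, hu⟩ := h0
    have hu' : C.d0 u = θ0 := hu
    exact hne u hu'.symm
  intro a ha
  obtain ⟨t, ht⟩ := (finrank_eq_one_iff_of_nonzero' _ hx).1 h
    (Submodule.Quotient.mk (⟨a, ha⟩ : LinearMap.ker C.d1))
  rw [← Submodule.Quotient.mk_smul, Submodule.Quotient.eq] at ht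
  obtain ⟨u, hu⟩ := ht
  have hu' : C.d0 u = t • θ0 - a := hu
  refine ⟨t, -u, ?_⟩
  rw [map_neg, hu']; abel

include S in
/-- The Gauduchon data exist if `b_1 = 1`. -/
theorem Scal.nonempty_gaud (h : Module.finrank ℂ C.H1 = 1) : Nonempty C.Gaud := by
  obtain ⟨θ0, h1, h2, h3⟩ := exists_closed_real h
  obtain ⟨A, -⟩ := S.exists_gaud h1 h2 h3 (b1le_of h h1 h3)
  exact ⟨A⟩

end

end Vale.Agent.P267.H661
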